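import Vale.Agent.P310.WLDefs

/-!
# Generic lemmas on the Weisfeiler-Leman refinement
-/

namespace Vale.Agent.P310

open Function

variable {V W : Type} [Fintype V] [Fintype W] {k : ℕ} {G : SimpleGraph V} {H : SimpleGraph W}

/-! ### From a bijective pebble game strategy to equivalence -/

/-- Core: a relation between `k`-tuples that is closed under bijective replacement. -/
theorem wl_eq_of_rel (R : (Fin k → V) → (Fin k → W) → Prop)
    (hat : ∀ x x', R x x' → ∀ i j, (x i = x j ↔ x' i = x' j) ∧
      (G.Adj (x i) (x j) ↔ H.Adj (x' i) (x' j)))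
    (hf : ∀ x x', R x x' → ∃ h : V ≃ W, ∀ y i, R (update x i y) (update x' i (h y)))
    (r : ℕ) : ∀ x x', R x x' → wl G k r x = wl H k r x' := by
  induction r with
  | zero =>
    intro x x' h
    funext i j
    obtain ⟨h1, h2⟩ := hat x x' h i j
    exact Prod.ext (propext h1) (propext h2)
  | succ r ih =>
    intro x x' h
    obtain ⟨e, he⟩ := hf x x' h
    refine Prod.ext (ih x x' h) ?_
    show (Finset.univ : Finset V).val.map _ = (Finset.univ : Finset W).val.map _
    have h1 : (Finset.univ : Finset W) = (Finset.univ : Finset V).map e.toEmbedding := by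
      ext w
      simp
    rw [h1, Finset.map_val, Multiset.map_map]
    refine Multiset.map_congr rfl fun y _ => ?_
    funext i
    exact ih _ _ (he y i)

/-- The set of pairs of a tuple of pairs. -/
theorem range_update_subset {α : Type} (x : Fin k → α) (i : Fin k) (a : α) :
    Set.range (update x i a) ⊆ insert a (Set.range x) := by
  rintro _ ⟨j, rfl⟩
  by_cases h : j = i
  · subst h
    simp
  · rw [update_of_ne h]
    exact Set.mem_insert_of_mem _ ⟨j, rfl⟩

/-- Bijective `(k+1)`-pebble game: a family of sets of pairs of vertices, closed under subsets,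
containing the empty set, consisting of partial isomorphisms, and such that each member with at most
`k` pairs extends by a bijection. -/
theorem wlEquiv_of_family (F : Set (V × W) → Prop)
    (mono : ∀ P Q : Set (V × W), F P → Q ⊆ P → F Q)
    (empty : F ∅)
    (iso : ∀ P, F P → ∀ p ∈ P, ∀ q ∈ P, (p.1 = q.1 ↔ p.2 = q.2) ∧
      (G.Adj p.1 q.1 ↔ H.Adj p.2 q.2))
    (forth : ∀ m ≤ k, ∀ x : Fin m → V × W, F (Set.range x) →
      ∃ h : V ≃ W, ∀ y, F (insert (y, h y) (Set.range x))) :
    WLEquiv k G H := by
  classical
  -- the relation on `k`-tuples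
  let R : ∀ m : ℕ, (Fin m → V) → (Fin m → W) → Prop := fun m x x' =>
    F (Set.range fun i => (x i, x' i))
  have hR : ∀ x x', R k x x' → ∀ i j, (x i = x j ↔ x' i = x' j) ∧
      (G.Adj (x i) (x j) ↔ H.Adj (x' i) (x' j)) := by
    intro x x' h i j
    exact iso _ h _ ⟨i, rfl⟩ _ ⟨j, rfl⟩
  have hf : ∀ x x', R k x x' → ∃ h : V ≃ W, ∀ y i, R k (update x i y) (update x' i (h y)) := by
    intro x x' h
    obtain ⟨e, he⟩ := forth k le_rfl _ h
    refine ⟨e, fun y i => mono _ _ (he y) ?_⟩
    refine subset_trans ?_ (range_update_subset (fun i => (x i, x' i)) i (y, e y))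
    rintro _ ⟨j, rfl⟩
    refine ⟨j, ?_⟩
    by_cases hj : j = i
    · subst hj
      simp
    · simp [update_of_ne hj]
  -- the bijections between `m`-tuples
  have key : ∀ m ≤ k, ∃ e : (Fin m → V) ≃ (Fin m → W), ∀ x, R m x (e x) := by
    intro m
    induction m with
    | zero =>
      intro _
      refine ⟨Equiv.ofUnique _ _, fun x => ?_⟩
      refine mono _ _ empty ?_
      rintro _ ⟨i, _⟩
      exact i.elim0
    | succ m ih =>
      intro hm
      obtain ⟨e, he⟩ := ih (by omega)
      have h1 : ∀ x : Fin m → V, ∃ h : V ≃ W, ∀ y,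
          F (insert (y, h y) (Set.range fun i => (x i, e x i))) := fun x =>
        forth m (by omega) _ (he x)
      choose f hf' using h1
      -- tuples of length `m + 1` as pairs
      let E : (Fin m → V) × V ≃ (Fin m → W) × W :=
        { toFun := fun p => (e p.1, f p.1 p.2)
          invFun := fun p => (e.symm p.1, (f (e.symm p.1)).symm p.2)
          left_inv := fun p => by simp
          right_inv := fun p => by simp }
      let SV : (Fin (m + 1) → V) ≃ (Fin m → V) × V :=
        ((Fin.snocEquiv fun _ => V).symm.trans (Equiv.prodComm _ _))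
      let SW : (Fin (m + 1) → W) ≃ (Fin m → W) × W :=
        ((Fin.snocEquiv fun _ => W).symm.trans (Equiv.prodComm _ _))
      refine ⟨(SV.trans E).trans SW.symm, fun x => ?_⟩
      have hx : ∀ i : Fin (m + 1), ((SV.trans E).trans SW.symm) x i =
          (Fin.snoc (α := fun _ => W) (e fun i => x i.castSucc)
            (f (fun i => x i.castSucc) (x (Fin.last m)))) i := by
        intro i
        rfl
      refine mono _ _ (hf' (fun i => x i.castSucc) (x (Fin.last m))) ?_
      rintro _ ⟨i, rfl⟩
      simp only [hx]
      refine Fin.lastCases ?_ (fun j => ?_) i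
      · simp
      · rw [Fin.snoc_castSucc]
        exact Set.mem_insert_of_mem _ ⟨j, rfl⟩
  obtain ⟨e, he⟩ := key k le_rfl
  intro r
  have h1 : (Finset.univ : Finset (Fin k → W)) =
      (Finset.univ : Finset (Fin k → V)).map e.toEmbedding := by
    ext w
    simp
  rw [h1, Finset.map_val, Multiset.map_map]
  exact Multiset.map_congr rfl fun x _ => wl_eq_of_rel (R k) hR hf r x _ (he x)

/-! ### Tuples with the same stable colour -/

/-- `x` and `x'` have the same colours in all rounds. -/
def WLSame (k : ℕ) (G : SimpleGraph V) (H : SimpleGraph W) (x : Fin k → V) (x' : Fin k → W) :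
    Prop :=
  ∀ r, wl G k r x = wl H k r x'

theorem wl_mono {x : Fin k → V} {x' : Fin k → W} {r s : ℕ} (hrs : r ≤ s)
    (h : wl G k s x = wl H k s x') : wl G k r x = wl H k r x' := by
  induction hrs with
  | refl => exact h
  | step _ ih => exact ih (congrArg Prod.fst h)

theorem WLSame.symm {x : Fin k → V} {x' : Fin k → W} (h : WLSame k G H x x') :
    WLSame k H G x' x := fun r => (h r).symm

theorem WLEquiv.symm (h : WLEquiv k G H) : WLEquiv k H G := fun r => (h r).symm

/-- Pigeonhole over the rounds. -/
theorem exists_forall_round {α : Type} [Finite α] (P : ℕ → α → Prop)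
    (hmono : ∀ r s a, r ≤ s → P s a → P r a) (h : ∀ r, ∃ a, P r a) : ∃ a, ∀ r, P r a := by
  classical
  by_contra hc
  push Not at hc
  choose f hf using hc
  cases nonempty_fintype α
  obtain ⟨a, ha⟩ := h (Finset.univ.sup f)
  exact hf a (hmono _ _ a (Finset.le_sup (Finset.mem_univ a)) ha)

theorem WLSame.forth {x : Fin k → V} {x' : Fin k → W} (h : WLSame k G H x x') (y : V) :
    ∃ y' : W, ∀ i, WLSame k G H (update x i y) (update x' i y') := by
  have h1 : ∃ y' : W, ∀ r, ∀ i, wl G k r (update x i y) = wl H k r (update x' i y') := by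
    refine exists_forall_round
      (fun r (y' : W) => ∀ i, wl G k r (update x i y) = wl H k r (update x' i y'))
      (fun r s a hrs hP i => wl_mono hrs (hP i)) fun r => ?_
    have h2 : (Finset.univ : Finset V).val.map (fun y => fun i => wl G k r (update x i y)) =
        (Finset.univ : Finset W).val.map (fun y => fun i => wl H k r (update x' i y)) :=
      congrArg Prod.snd (h (r + 1))
    have h3 : (fun i => wl G k r (update x i y)) ∈
        (Finset.univ : Finset V).val.map (fun y => fun i => wl G k r (update x i y)) :=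
      Multiset.mem_map.2 ⟨y, by simp, rfl⟩
    rw [h2] at h3
    obtain ⟨y', _, hy'⟩ := Multiset.mem_map.1 h3
    exact ⟨y', fun i => (congrFun hy' i).symm⟩
  obtain ⟨y', hy'⟩ := h1
  exact ⟨y', fun i r => hy' r i⟩

theorem WLSame.back {x : Fin k → V} {x' : Fin k → W} (h : WLSame k G H x x') (y' : W) :
    ∃ y : V, ∀ i, WLSame k G H (update x i y) (update x' i y') := by
  obtain ⟨y, hy⟩ := h.symm.forth y'
  exact ⟨y, fun i => (hy i).symm⟩

theorem WLSame.eq_iff {x : Fin k → V} {x' : Fin k → W} (h : WLSame k G H x x') (i j : Fin k) :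
    x i = x j ↔ x' i = x' j := by
  have h1 := congrFun (congrFun (h 0) i) j
  exact iff_of_eq (congrArg Prod.fst h1)

theorem WLSame.adj_iff {x : Fin k → V} {x' : Fin k → W} (h : WLSame k G H x x') (i j : Fin k) :
    G.Adj (x i) (x j) ↔ H.Adj (x' i) (x' j) := by
  have h1 := congrFun (congrFun (h 0) i) j
  exact iff_of_eq (congrArg Prod.snd h1)

open Classical in
/-- The degrees of the entries agree (`k ≥ 2`). -/
theorem WLSame.degree {x : Fin k → V} {x' : Fin k → W} (h : WLSame k G H x x') (hk : 2 ≤ k)
    (i : Fin k) : G.degree (x i) = H.degree (x' i) := by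
  obtain ⟨j, hj⟩ : ∃ j : Fin k, i ≠ j := by
    have : Nontrivial (Fin k) := Fin.nontrivial_iff_two_le.2 hk
    obtain ⟨j, hj⟩ := exists_ne i
    exact ⟨j, hj.symm⟩
  have h2 : (Finset.univ : Finset V).val.map (fun y => fun i => wl G k 0 (update x i y)) =
      (Finset.univ : Finset W).val.map (fun y => fun i => wl H k 0 (update x' i y)) :=
    congrArg Prod.snd (h 1)
  have h3 := congrArg (fun M => (Multiset.countP (fun c : Fin k → Color k 0 =>
    (c j i j).2) M)) h2
  simp only [Multiset.countP_map] at h3
  have h4 : ∀ y, ((wl G k 0 (update x j y)) i j).2 = G.Adj (x i) y := by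
    intro y
    show G.Adj (update x j y i) (update x j y j) = _
    rw [update_self, update_of_ne hj]
  have h5 : ∀ y, ((wl H k 0 (update x' j y)) i j).2 = H.Adj (x' i) y := by
    intro y
    show H.Adj (update x' j y i) (update x' j y j) = _
    rw [update_self, update_of_ne hj]
  simp only [h4, h5] at h3
  have h6 : G.degree (x i) = (Finset.univ.filter fun y => G.Adj (x i) y).card := by
    rw [← SimpleGraph.card_neighborFinset_eq_degree]
    congr 1
    ext y
    simp
  have h7 : H.degree (x' i) = (Finset.univ.filter fun y => H.Adj (x' i) y).card := by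
    rw [← SimpleGraph.card_neighborFinset_eq_degree]
    congr 1
    ext y
    simp
  rw [h6, h7]
  exact h3

theorem WLEquiv.exists_same (h : WLEquiv k G H) (x : Fin k → V) :
    ∃ x' : Fin k → W, WLSame k G H x x' := by
  have h1 : ∃ x' : Fin k → W, ∀ r, wl G k r x = wl H k r x' := by
    refine exists_forall_round (fun r (x' : Fin k → W) => wl G k r x = wl H k r x')
      (fun r s a hrs hP => wl_mono hrs hP) fun r => ?_
    have h3 : wl G k r x ∈ (Finset.univ : Finset (Fin k → V)).val.map (wl G k r) :=
      Multiset.mem_map.2 ⟨x, by simp, rfl⟩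
    rw [h r] at h3
    obtain ⟨y', _, hy'⟩ := Multiset.mem_map.1 h3
    exact ⟨y', hy'.symm⟩
  exact h1

/-! ### Isomorphism invariance -/

theorem wl_iso {V' : Type} [Fintype V'] {G' : SimpleGraph V'} (e : G ≃g G') (r : ℕ)
    (x : Fin k → V) : wl G k r x = wl G' k r (fun i => e (x i)) := by
  refine wl_eq_of_rel (fun x x' => x' = fun i => e (x i)) ?_ ?_ r x _ rfl
  · rintro x _ rfl i j
    exact ⟨(e.injective.eq_iff).symm, (e.map_adj_iff).symm⟩
  · rintro x _ rfl
    refine ⟨e.toEquiv, fun y i => ?_⟩
    funext j
    by_cases h : j = i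
    · subst h
      simp
    · simp [update_of_ne h]

theorem wl_map_iso {V' : Type} [Fintype V'] {G' : SimpleGraph V'} (e : G ≃g G') (r : ℕ) :
    (Finset.univ : Finset (Fin k → V)).val.map (wl G k r) =
      (Finset.univ : Finset (Fin k → V')).val.map (wl G' k r) := by
  classical
  have h1 : (Finset.univ : Finset (Fin k → V')) =
      (Finset.univ : Finset (Fin k → V)).map (Equiv.arrowCongr (Equiv.refl (Fin k))
        e.toEquiv).toEmbedding := by
    ext w
    simp
  rw [h1, Finset.map_val, Multiset.map_map]
  exact Multiset.map_congr rfl fun x _ => wl_iso e r x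

theorem WLEquiv.congr_iso {V' W' : Type} [Fintype V'] [Fintype W'] {G' : SimpleGraph V'}
    {H' : SimpleGraph W'} (e : G ≃g G') (f : H ≃g H') : WLEquiv k G H ↔ WLEquiv k G' H' := by
  constructor
  · intro h r
    rw [← wl_map_iso e, ← wl_map_iso f]
    exact h r
  · intro h r
    rw [wl_map_iso e, wl_map_iso f]
    exact h r

end Vale.Agent.P310
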