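import Vale.Agent.P310.H593.Num
import Vale.Agent.P310.H593.WL
import Vale.Agent.P310.H853.Pad
import Vale.Agent.P310.H630.Misc

/-!
# P310: the numbered graphs on `Fin N`
-/

namespace Vale.Agent.P310

namespace HData

variable {D : HData} {k : ℕ}

instance conFintype (D : HData) (k : ℕ) : Fintype (D.HCon k) :=
  Fintype.ofEquiv _ (conE D k).symm

theorem card_base (D : HData) (k : ℕ) :
    Fintype.card (BaseV (D.HVar k) (D.HCon k) (HSl k)) = D.nU k (FF k) := by
  rw [Fintype.card_congr (uE D k), Fintype.card_fin]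

theorem iN_injective : Function.Injective (D.iN k) := by
  rintro (v | e) (v' | e') h
  · have : vE D k v = vE D k v' := Fin.ext h
    rw [(vE D k).injective this]
  · have h1 : (vE D k v : ℕ) = D.nV k + cE D k e' := h
    have := (vE D k v).2
    omega
  · have h1 : D.nV k + cE D k e = (vE D k v' : ℕ) := h
    have := (vE D k v').2
    omega
  · have h1 : D.nV k + cE D k e = D.nV k + (cE D k e' : ℕ) := h
    have : cE D k e = cE D k e' := Fin.ext (by omega)
    rw [(cE D k).injective this]

theorem iN_lt (i : D.HVar k ⊕ D.HCon k) : D.iN k i < D.nV k + D.nE k := by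
  rcases i with v | e
  · have h1 : D.iN k (.inl v) = (vE D k v : ℕ) := rfl
    have := (vE D k v).2
    omega
  · have h1 : D.iN k (.inr e) = D.nV k + cE D k e := rfl
    have := (cE D k e).2
    omega

theorem nU_pos (D : HData) (k : ℕ) : 0 < D.nU k (FF k) := by
  have h1 : 0 < D.nE k := by unfold nE; omega
  have h2 : 0 < FF k := by unfold FF; positivity
  have := Nat.mul_pos h1 h2
  unfold nU
  omega

/-- The numbers of leaves are admissible. -/
theorem cntN_ok (D : HData) (k : ℕ) [DecidableEq (HSl k)] :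
    CntOk (D.HVar k) (D.HCon k) (HSl k) (D.cntN k) (D.nL k (FF k)) := by
  have h0 := nU_pos D k
  refine cntOk_of_idx (B := D.bigB k (FF k)) (D.iN k) iN_injective ?_ ?_ ?_
  · refine (Fintype.card_congr (uE D k)).le.trans ?_
    rw [Fintype.card_fin, bigB]
    omega
  · rw [bigB]
    omega
  · intro i
    exact Nat.mul_le_mul_right _ (iN_lt i)

theorem adjN_false {par : Bool} {x y : ℕ} (h : ¬ (x < D.nTot k (FF k) ∧ y < D.nTot k (FF k))) :
    D.adjN k (FF k) par x y = false := by
  rw [adjN]
  by_cases hx : x < D.nTot k (FF k)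
  · have hy : ¬ y < D.nTot k (FF k) := fun hy => h ⟨hx, hy⟩
    simp [hy]
  · simp [hx]

theorem adjN_symm (hD : D.Ok) (hk : 0 < k) {par : Bool} {x y : ℕ}
    (h : D.adjN k (FF k) par x y = true) : D.adjN k (FF k) par y x = true := by
  by_cases hxy : x < D.nTot k (FF k) ∧ y < D.nTot k (FF k)
  · obtain ⟨a, ha⟩ := (xE D k).surjective ⟨x, hxy.1⟩
    obtain ⟨b, hb⟩ := (xE D k).surjective ⟨y, hxy.2⟩
    have ha' : (xE D k a : ℕ) = x := congrArg Fin.val ha
    have hb' : (xE D k b : ℕ) = y := congrArg Fin.val hb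
    rw [← ha', ← hb', adjN_iff hD hk] at h ⊢
    exact h.symm
  · rw [adjN_false hxy] at h
    exact absurd h (by simp)

theorem adjN_irrefl (hD : D.Ok) (hk : 0 < k) (par : Bool) (x : ℕ) :
    ¬ D.adjN k (FF k) par x x = true := by
  intro h
  by_cases hx : x < D.nTot k (FF k)
  · obtain ⟨a, ha⟩ := (xE D k).surjective ⟨x, hx⟩
    have ha' : (xE D k a : ℕ) = x := congrArg Fin.val ha
    rw [← ha', adjN_iff hD hk] at h
    exact h.ne rfl
  · rw [adjN_false fun h => hx h.1] at h
    exact absurd h (by simp)

/-- The numbered graph with `N` vertices. -/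
def numGraph (hD : D.Ok) (hk : 0 < k) (par : Bool) (N : ℕ) : SimpleGraph (Fin N) where
  Adj i j := D.adjN k (FF k) par i j = true
  symm := ⟨fun _ _ h => adjN_symm hD hk h⟩
  loopless := ⟨fun i h => adjN_irrefl hD hk par i h⟩

theorem adjBits_numGraph (hD : D.Ok) (hk : 0 < k) (par : Bool) (N : ℕ) :
    adjBits (numGraph hD hk par N) = D.bitsN k (FF k) par N := by
  classical
  have h1 : ∀ {β : Type} (f : ℕ → β), (List.finRange N).map (fun i : Fin N => f i) =
      (List.range N).map f := by
    intro β f
    rw [← List.map_coe_finRange_eq_range, List.map_map]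
    rfl
  have h2 : ∀ {β : Type} (f : ℕ → List β), (List.finRange N).flatMap (fun i : Fin N => f i) =
      (List.range N).flatMap f := by
    intro β f
    rw [List.flatMap_def, List.flatMap_def, h1]
  rw [adjBits, bitsN, ← h2]
  refine congrArg (fun f : Fin N → List Bool => (List.finRange N).flatMap f) (funext fun i => ?_)
  rw [← h1]
  refine List.map_congr_left fun j _ => ?_
  have h3 : (numGraph hD hk par N).Adj i j ↔ D.adjN k (FF k) par i j = true := Iff.rfl
  rw [Bool.eq_iff_iff, decide_eq_true_iff, h3]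

/-- The numbered graph is the graph of the slot system with isolated vertices added. -/
def numIso (hD : D.Ok) (hk : 0 < k) (par : Bool) (m : ℕ) :
    (((hsys hD hk).graph (D.parN k par) (D.cntN k) (D.nL k (FF k))) ⊕g
      (⊥ : SimpleGraph (Fin m))) ≃g numGraph hD hk par (D.nTot k (FF k) + m) where
  toEquiv := (Equiv.sumCongr (xE D k) (Equiv.refl (Fin m))).trans finSumFinEquiv
  map_rel_iff' := by
    rintro (x | x) (y | y)
    · show D.adjN k (FF k) par (xE D k x) (xE D k y) = true ↔ _
      rw [adjN_iff hD hk]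
      simp
    · show D.adjN k (FF k) par (xE D k x) (D.nTot k (FF k) + y) = true ↔ _
      rw [adjN_false fun h => absurd h.2 (by omega)]
      simp
    · show D.adjN k (FF k) par (D.nTot k (FF k) + x) (xE D k y) = true ↔ _
      rw [adjN_false fun h => absurd h.1 (by omega)]
      simp
    · show D.adjN k (FF k) par (D.nTot k (FF k) + x) (D.nTot k (FF k) + y) = true ↔ _
      rw [adjN_false fun h => absurd h.1 (by omega)]
      simp

/-- Equivalence of the numbered graphs. -/
theorem wlEquiv_numGraph (hD : D.Ok) (hk0 : 0 < k) (hk : 2 ≤ k) (m : ℕ) :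
    WLEquiv k (numGraph hD hk0 false (D.nTot k (FF k) + m))
        (numGraph hD hk0 true (D.nTot k (FF k) + m)) ↔
      WLEquiv k ((hsys hD hk0).graph (D.parN k false) (D.cntN k) (D.nL k (FF k)))
        ((hsys hD hk0).graph (D.parN k true) (D.cntN k) (D.nL k (FF k))) := by
  rw [← WLEquiv.congr_iso (numIso hD hk0 false m) (numIso hD hk0 true m)]
  exact wlEquiv_sum_bot hk

end HData

end Vale.Agent.P310
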