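import Vale.Agent.P310.NumDefs

/-!
# P310: the numbering of the graphs, correctness
-/

namespace Vale.Agent.P310

namespace HData

variable {D : HData} {k : ℕ}

/-! ### Numbers of variables, constraints, assignments, vertices -/

/-- numbers of bits -/
def mE (D : HData) (k : ℕ) : Fin D.nR × Fin (D.nB k) ≃ Fin (D.nM k) := finProdFinEquiv

theorem mE_val (m : Fin D.nR × Fin (D.nB k)) : (mE D k m : ℕ) = m.2 + D.nB k * m.1 := rfl

/-- numbers of pairs (row, symbol) -/
def rE (D : HData) (k : ℕ) : Fin k × Fin D.b ≃ Fin (k * D.b) := finProdFinEquiv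

theorem rE_val (m : Fin k × Fin D.b) : (rE D k m : ℕ) = m.2 + D.b * m.1 := rfl

/-- numbers of variables -/
def vE (D : HData) (k : ℕ) : D.HVar k ≃ Fin (D.nV k) :=
  (Equiv.prodCongr ((Equiv.prodCongr (Equiv.refl _) (mE D k)).trans finProdFinEquiv)
    (rE D k)).trans finProdFinEquiv

theorem vE_val (v : D.HVar k) : (vE D k v : ℕ) = D.varIdx k v.1.1 (mE D k v.1.2) v.2.1 v.2.2 := rfl

/-- constraints as a sum type -/
def conE (D : HData) (k : ℕ) : D.HCon k ≃
    ((Fin D.nR × (Fin D.nR × Fin (D.nB k))) × (Fin k × Fin D.b)) ⊕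
      ((Fin D.nR × Fin (D.nB k)) ⊕ Fin 1) where
  toFun
    | .row ρ m r a => .inl ((ρ, m), (r, a))
    | .cross m => .inr (.inl m)
    | .goal => .inr (.inr 0)
  invFun
    | .inl x => .row x.1.1 x.1.2 x.2.1 x.2.2
    | .inr (.inl m) => .cross m
    | .inr (.inr _) => .goal
  left_inv e := by cases e <;> rfl
  right_inv x := by
    rcases x with x | x | x
    · rfl
    · rfl
    · rw [Subsingleton.elim x 0]

/-- numbers of constraints -/
def cE (D : HData) (k : ℕ) : D.HCon k ≃ Fin (D.nE k) :=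
  (conE D k).trans ((Equiv.sumCongr
    ((Equiv.prodCongr ((Equiv.prodCongr (Equiv.refl _) (mE D k)).trans finProdFinEquiv)
      (rE D k)).trans finProdFinEquiv)
    ((Equiv.sumCongr (mE D k) (Equiv.refl (Fin 1))).trans finSumFinEquiv)).trans finSumFinEquiv)

theorem cE_row (ρ : Fin D.nR) (m : Fin D.nR × Fin (D.nB k)) (r : Fin k) (a : Fin D.b) :
    (cE D k (.row ρ m r a) : ℕ) =
      (rE D k (r, a) : ℕ) + k * D.b * ((mE D k m : ℕ) + D.nM k * ρ) := rfl

theorem cE_cross (m : Fin D.nR × Fin (D.nB k)) :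
    (cE D k (.cross m) : ℕ) = D.nRow k + (mE D k m : ℕ) := rfl

theorem cE_goal : (cE D k .goal : ℕ) = D.nRow k + (D.nM k + 0) := rfl

/-- numbers of assignments -/
def aE (k : ℕ) : (HSl k → ZMod 2) ≃ Fin (2 ^ (2 * (k + 3) + 1)) := finFunctionFinEquiv

/-- the number of assignments -/
abbrev FF (k : ℕ) : ℕ := 2 ^ (2 * (k + 3) + 1)

/-- numbers of base vertices -/
def uE (D : HData) (k : ℕ) : BaseV (D.HVar k) (D.HCon k) (HSl k) ≃ Fin (D.nU k (FF k)) :=
  (Equiv.sumCongr
    ((Equiv.prodCongr (vE D k) (Equiv.refl (Fin 2))).trans finProdFinEquiv)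
    ((Equiv.prodCongr (cE D k) (aE k)).trans finProdFinEquiv)).trans finSumFinEquiv

theorem uE_inl (v : D.HVar k) (s : ZMod 2) :
    (uE D k (.inl (v, s)) : ℕ) = s.val + 2 * (vE D k v : ℕ) := rfl

theorem uE_inr (e : D.HCon k) (α : HSl k → ZMod 2) :
    (uE D k (.inr (e, α)) : ℕ) = D.nV k * 2 + ((aE k α : ℕ) + FF k * (cE D k e : ℕ)) := rfl

/-- numbers of vertices -/
def xE (D : HData) (k : ℕ) :
    CfiV (D.HVar k) (D.HCon k) (HSl k) (D.nL k (FF k)) ≃ Fin (D.nTot k (FF k)) :=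
  (Equiv.prodCongr (uE D k) (Equiv.refl _)).trans finProdFinEquiv

theorem xE_val (x : CfiV (D.HVar k) (D.HCon k) (HSl k) (D.nL k (FF k))) :
    (xE D k x : ℕ) = x.2 + (D.nL k (FF k) + 1) * (uE D k x.1 : ℕ) := rfl

/-- the number of an item -/
def iN (D : HData) (k : ℕ) : D.HVar k ⊕ D.HCon k → ℕ
  | .inl v => vE D k v
  | .inr e => D.nV k + cE D k e

/-- the number of leaves of an item -/
def cntN (D : HData) (k : ℕ) (i : D.HVar k ⊕ D.HCon k) : ℕ := (D.iN k i + 1) * D.bigB k (FF k)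

/-- the right hand sides -/
def parN (D : HData) (k : ℕ) (par : Bool) (e : D.HCon k) : ZMod 2 := if par then e.par else 0

/-! ### Decoding -/

theorem div_add_mul {x n y : ℕ} (h : x < n) : (x + n * y) / n = y := by
  rw [Nat.add_mul_div_left _ _ (by omega), Nat.div_eq_of_lt h, zero_add]

theorem mod_add_mul {x n y : ℕ} (h : x < n) : (x + n * y) % n = x := by
  rw [Nat.add_mul_mod_self_left, Nat.mod_eq_of_lt h]

theorem row_lt (ρ : Fin D.nR) (m : Fin D.nR × Fin (D.nB k)) (r : Fin k) (a : Fin D.b) :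
    (cE D k (.row ρ m r a) : ℕ) < D.nRow k := by
  have h1 : (cE D k (.row ρ m r a) : ℕ) =
      ((((Equiv.prodCongr ((Equiv.prodCongr (Equiv.refl _) (mE D k)).trans finProdFinEquiv)
      (rE D k)).trans finProdFinEquiv) ((ρ, m), (r, a)) : Fin _) : ℕ) := rfl
  rw [h1]
  exact Fin.is_lt _

theorem row_mod (ρ : Fin D.nR) (m : Fin D.nR × Fin (D.nB k)) (r : Fin k) (a : Fin D.b) :
    (cE D k (.row ρ m r a) : ℕ) % (k * D.b) = a + D.b * r := by
  rw [cE_row, mod_add_mul (rE D k (r, a)).2, rE_val]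

theorem row_div (ρ : Fin D.nR) (m : Fin D.nR × Fin (D.nB k)) (r : Fin k) (a : Fin D.b) :
    (cE D k (.row ρ m r a) : ℕ) / (k * D.b) = (mE D k m : ℕ) + D.nM k * ρ := by
  rw [cE_row, div_add_mul (rE D k (r, a)).2]

theorem actN_eq (e : D.HCon k) (t : ℕ) : D.actN k (cE D k e) t = decide (Act k e t) := by
  cases e with
  | row ρ m r a =>
    rw [actN, if_pos (row_lt ρ m r a)]
    simp only [row_mod, row_div, mod_add_mul a.2, div_add_mul a.2,
      div_add_mul (mE D k m).2]
    rw [Bool.eq_iff_iff]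
    refine Iff.trans ?_ (decide_eq_true_iff (p := Act k (.row ρ m r a) t)).symm
    rw [Act]
    simp
  | cross m =>
    rw [actN, if_neg (by rw [cE_cross]; omega)]
    rfl
  | goal =>
    rw [actN, if_neg (by rw [cE_goal]; omega)]
    rfl

theorem svN_eq (hD : D.Ok) (hk : 0 < k) (e : D.HCon k) (t : ℕ) :
    D.svN k (cE D k e) t = vE D k (slotVar hD hk e t) := by
  cases e with
  | row ρ m r a =>
    rw [svN, if_pos (row_lt ρ m r a), slotVar]
    simp only [row_mod, row_div, mod_add_mul a.2, div_add_mul a.2,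
      div_add_mul (mE D k m).2, mod_add_mul (mE D k m).2]
    have h1 : ((mE D k m : ℕ)) / D.nB k = m.1 := by rw [mE_val, div_add_mul m.2.2]
    have h2 : ((mE D k m : ℕ)) % D.nB k = m.2 := by rw [mE_val, mod_add_mul m.2.2]
    rw [h1, h2]
    by_cases ht : t < 2 * (k + 3)
    · rw [if_pos ht, if_pos ht, vE_val, mE_val]
      rfl
    · rw [if_neg ht, if_neg ht, vE_val]
      rfl
  | cross m =>
    rw [svN, if_neg (by rw [cE_cross]; omega), if_pos (by rw [cE_cross]; have := (mE D k m).2; omega),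
      slotVar, vE_val, cE_cross, Nat.add_sub_cancel_left]
    rfl
  | goal =>
    rw [svN, if_neg (by rw [cE_goal]; omega), if_neg (by rw [cE_goal]; omega), slotVar, vE_val]
    rfl

theorem aE_testBit (α : HSl k → ZMod 2) (t : HSl k) :
    (aE k α : ℕ).testBit t = decide (α t = 1) := by
  rw [Nat.testBit_eq_decide_div_mod_eq]
  have h1 : ((finFunctionFinEquiv.symm (aE k α) t : Fin 2) : ℕ) = (aE k α : ℕ) / 2 ^ (t : ℕ) % 2 :=
    rfl
  rw [← h1]
  have h2 : finFunctionFinEquiv.symm (aE k α) t = α t :=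
    congrFun (finFunctionFinEquiv.symm_apply_apply (α : Fin _ → Fin 2)) t
  rw [h2]
  have h3 : ∀ z : Fin 2, decide ((z : ℕ) = 1) = decide (z = 1) := by decide
  exact h3 (α t)

theorem cE_goal_iff (e : D.HCon k) : (cE D k e : ℕ) = D.nRow k + D.nM k ↔ e = .goal := by
  constructor
  · intro h
    have : cE D k e = cE D k .goal := Fin.ext h
    exact (cE D k).injective this
  · rintro rfl
    rfl

theorem okN_iff (hD : D.Ok) (hk : 0 < k) (par : Bool) (e : D.HCon k) (α : HSl k → ZMod 2) :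
    D.okN k par (cE D k e) (aE k α) = true ↔ (hsys hD hk).Ok (D.parN k par) e α := by
  have h1 : (((List.range (2 * (k + 3) + 1)).filter fun t =>
      D.actN k (cE D k e) t && (aE k α : ℕ).testBit t).length : ZMod 2) =
      ∑ t ∈ (hsys hD hk).act e, α t := by
    have h2 : ((List.range (2 * (k + 3) + 1)).filter fun t =>
        D.actN k (cE D k e) t && (aE k α : ℕ).testBit t).length =
        ((Finset.range (2 * (k + 3) + 1)).filter fun t =>
          (D.actN k (cE D k e) t && (aE k α : ℕ).testBit t) = true).card := by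
      rw [Finset.card, Finset.filter_val, Finset.range_val, Multiset.range, Multiset.filter_coe,
        Multiset.coe_card]
      congr 1
      exact List.filter_congr fun x _ => by simp
    rw [h2, Finset.card_filter, Nat.cast_sum, Finset.sum_range]
    simp only [hsys]
    rw [Finset.sum_filter]
    refine Finset.sum_congr rfl fun t _ => ?_
    rw [actN_eq, aE_testBit]
    by_cases ha : Act k e t
    · have h3 : ∀ z : ZMod 2, ((if (decide (z = 1)) = true then 1 else 0 : ℕ) : ZMod 2) = z := by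
        decide
      simp only [ha, decide_true, Bool.true_and, if_true]
      exact h3 (α t)
    · simp [ha]
  rw [okN, decide_eq_true_iff, SlotSys.Ok, ← h1]
  have h4 : D.parN k par e = ((if par && decide ((cE D k e : ℕ) = D.nRow k + D.nM k) then 1 else 0 : ℕ) :
      ZMod 2) := by
    rw [parN]
    cases par with
    | false => rfl
    | true =>
      by_cases h : e = .goal
      · subst h
        simp [cE_goal_iff, Con.par]
      · simp only [cE_goal_iff, h, decide_false, Bool.and_false, Bool.false_eq_true, if_false,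
          if_true, Nat.cast_zero]
        cases e with
        | row => rfl
        | cross => rfl
        | goal => exact absurd rfl h
  rw [h4, ZMod.natCast_eq_natCast_iff']
  have h5 : ∀ c : Bool, (if c then 1 else 0) % 2 = (if c then 1 else 0 : ℕ) := by decide
  rw [h5]

theorem incN_iff (hD : D.Ok) (hk : 0 < k) (par : Bool) (v : D.HVar k) (s : ZMod 2) (e : D.HCon k)
    (α : HSl k → ZMod 2) :
    D.incN k par (vE D k v) s.val (cE D k e) (aE k α) = true ↔
      (hsys hD hk).Inc (D.parN k par) v s e α := by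
  rw [incN, Bool.and_eq_true, okN_iff hD hk, SlotSys.Inc, List.any_eq_true]
  refine and_congr Iff.rfl ?_
  have hs : ∀ z s : ZMod 2, (decide (decide (z = 1) = decide (s.val = 1)) = true) ↔
      z = s := by decide
  constructor
  · rintro ⟨t, ht, h⟩
    rw [List.mem_range] at ht
    rw [Bool.and_eq_true, Bool.and_eq_true, actN_eq, decide_eq_true_iff, decide_eq_true_iff,
      svN_eq hD hk] at h
    obtain ⟨h1, h2, h3⟩ := h
    refine ⟨⟨t, ht⟩, by simp [hsys, h1], ?_, ?_⟩
    · exact (vE D k).injective (Fin.ext h2)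
    · rw [aE_testBit α ⟨t, ht⟩] at h3
      exact (hs _ _).1 h3
  · rintro ⟨t, ht, h2, h3⟩
    refine ⟨t, List.mem_range.2 t.2, ?_⟩
    rw [Bool.and_eq_true, Bool.and_eq_true, actN_eq, decide_eq_true_iff, decide_eq_true_iff,
      svN_eq hD hk, aE_testBit]
    refine ⟨by simpa [hsys] using ht, ?_, (hs _ _).2 h3⟩
    rw [← h2]
    rfl

theorem uE_inl_lt (v : D.HVar k) (s : ZMod 2) : (uE D k (.inl (v, s)) : ℕ) < D.nV k * 2 := by
  rw [uE_inl]
  have h1 := (vE D k v).2
  have h2 := s.val_lt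
  omega

theorem baseAdjN_iff (hD : D.Ok) (hk : 0 < k) (par : Bool)
    (u u' : BaseV (D.HVar k) (D.HCon k) (HSl k)) :
    D.baseAdjN k (FF k) par (uE D k u) (uE D k u') = true ↔
      (hsys hD hk).BaseAdj (D.parN k par) u u' := by
  have hv : ∀ (v : D.HVar k) (s : ZMod 2), (uE D k (.inl (v, s)) : ℕ) / 2 = vE D k v := by
    intro v s
    rw [uE_inl, div_add_mul s.val_lt]
  have hs : ∀ (v : D.HVar k) (s : ZMod 2), (uE D k (.inl (v, s)) : ℕ) % 2 = s.val := by
    intro v s
    rw [uE_inl, mod_add_mul s.val_lt]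
  have he : ∀ (e : D.HCon k) (α : HSl k → ZMod 2),
      ((uE D k (.inr (e, α)) : ℕ) - D.nV k * 2) / FF k = cE D k e := by
    intro e α
    rw [uE_inr, Nat.add_sub_cancel_left, div_add_mul (aE k α).2]
  have ha : ∀ (e : D.HCon k) (α : HSl k → ZMod 2),
      ((uE D k (.inr (e, α)) : ℕ) - D.nV k * 2) % FF k = aE k α := by
    intro e α
    rw [uE_inr, Nat.add_sub_cancel_left, mod_add_mul (aE k α).2]
  have hr : ∀ (e : D.HCon k) (α : HSl k → ZMod 2),
      ¬ (uE D k (.inr (e, α)) : ℕ) < D.nV k * 2 := by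
    intro e α
    rw [uE_inr]
    omega
  rcases u with ⟨v, s⟩ | ⟨e, α⟩ <;> rcases u' with ⟨v', s'⟩ | ⟨e', α'⟩
  · rw [baseAdjN, if_pos (uE_inl_lt v s), if_pos (uE_inl_lt v' s')]
    simp [SlotSys.BaseAdj]
  · rw [baseAdjN, if_pos (uE_inl_lt v s), if_neg (hr e' α'), hv, hs, he, ha, incN_iff hD hk]
    rfl
  · rw [baseAdjN, if_neg (hr e α), if_pos (uE_inl_lt v' s'), hv, hs, he, ha, incN_iff hD hk]
    rfl
  · rw [baseAdjN, if_neg (hr e α), if_neg (hr e' α')]
    simp [SlotSys.BaseAdj]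

theorem leafN_iff (hD : D.Ok) (hk : 0 < k) (par : Bool)
    (u : BaseV (D.HVar k) (D.HCon k) (HSl k)) (l : ℕ) :
    D.leafN k (FF k) par (uE D k u) l = true ↔
      (hsys hD hk).LeafAdj (D.parN k par) (D.cntN k) u l := by
  rw [leafN, Bool.and_eq_true, decide_eq_true_iff, SlotSys.LeafAdj]
  have h1 : D.itemN k (FF k) (uE D k u) = D.iN k (SlotSys.item u) := by
    rcases u with ⟨v, s⟩ | ⟨e, α⟩
    · rw [itemN, if_pos (uE_inl_lt v s), uE_inl, div_add_mul s.val_lt]
      rfl
    · rw [itemN, if_neg (by rw [uE_inr]; omega), uE_inr, Nat.add_sub_cancel_left,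
        div_add_mul (aE k α).2]
      rfl
  rw [h1]
  refine and_congr ?_ Iff.rfl
  rcases u with ⟨v, s⟩ | ⟨e, α⟩
  · rw [liveN, if_pos (uE_inl_lt v s)]
    simp [SlotSys.Live]
  · rw [liveN, if_neg (by rw [uE_inr]; omega), uE_inr, Nat.add_sub_cancel_left,
      div_add_mul (aE k α).2, mod_add_mul (aE k α).2, okN_iff hD hk]
    rfl

/-- Adjacency of the numbered graph. -/
theorem adjN_iff (hD : D.Ok) (hk : 0 < k) (par : Bool)
    (x y : CfiV (D.HVar k) (D.HCon k) (HSl k) (D.nL k (FF k))) :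
    D.adjN k (FF k) par (xE D k x) (xE D k y) = true ↔
      ((hsys hD hk).graph (D.parN k par) (D.cntN k) (D.nL k (FF k))).Adj x y := by
  have h1 : ∀ x : CfiV (D.HVar k) (D.HCon k) (HSl k) (D.nL k (FF k)),
      (xE D k x : ℕ) / (D.nL k (FF k) + 1) = uE D k x.1 := by
    intro x
    rw [xE_val, div_add_mul x.2.2]
  have h2 : ∀ x : CfiV (D.HVar k) (D.HCon k) (HSl k) (D.nL k (FF k)),
      (xE D k x : ℕ) % (D.nL k (FF k) + 1) = x.2 := by
    intro x
    rw [xE_val, mod_add_mul x.2.2]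
  have h3 : (uE D k x.1 : ℕ) = (uE D k y.1 : ℕ) ↔ x.1 = y.1 :=
    ⟨fun h => (uE D k).injective (Fin.ext h), fun h => by rw [h]⟩
  rw [adjN]
  simp only [h1, h2, Bool.and_eq_true, Bool.or_eq_true, decide_eq_true_iff, Bool.not_eq_true',
    decide_eq_false_iff_not, (xE D k x).2, (xE D k y).2, true_and, h3, baseAdjN_iff hD hk,
    leafN_iff hD hk]
  show _ ↔ (x.2.val = 0 ∧ y.2.val = 0 ∧ _) ∨ (x.1 = y.1 ∧ x.2.val = 0 ∧ y.2.val ≠ 0 ∧ _) ∨
    (x.1 = y.1 ∧ y.2.val = 0 ∧ x.2.val ≠ 0 ∧ _)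
  constructor
  · rintro (h | ⟨h, h' | h'⟩)
    · exact Or.inl h
    · exact Or.inr (Or.inl ⟨h, h'⟩)
    · exact Or.inr (Or.inr ⟨h, h'⟩)
  · rintro (h | h | h)
    · exact Or.inl h
    · exact Or.inr ⟨h.1, Or.inl h.2⟩
    · exact Or.inr ⟨h.1, Or.inr h.2⟩

end HData

end Vale.Agent.P310
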